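import Vale.Agent.Lib.P074B.CtLip

open MeasureTheory
open scoped ENNReal NNReal RealInnerProductSpace BoundedContinuousFunction

namespace Vale.Agent.Lib.P074

variable {d : ℕ} {Y : Set (E d)}

/-- TASK B3 (M/L).  Double conjugate.  Put `g' y = sup_{x ∈ K} (⟪x, y⟫ - ct g x)` (supremum over the
compact nonempty subtype `K`; continuous in `x`, so bounded above).  `R` = a bound of `‖x‖` on `K`.
* `g'` is `R`-Lipschitz (sup of `R`-Lipschitz functions of `y`), so continuous; make it a bounded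
  continuous function with `BoundedContinuousFunction.mkOfCompact`.
* `g' y ≤ g y` because `⟪x, y⟫ - g y ≤ ct g x` (`le_ct`).
* for `x ∈ K`: `ct g x ≤ ct g' x` by `ct_anti`; and `⟪x, y⟫ - g' y ≤ ct g x` because
  `⟪x, y⟫ - ct g x ≤ g' y`; conclude with `ct_le`. -/
theorem exists_cc [CompactSpace Y] [Nonempty Y] {K : Set (E d)} (hK : IsCompact K)
    (hKne : K.Nonempty) :
    ∃ R : ℝ≥0, ∀ g : Y →ᵇ ℝ, ∃ g' : Y →ᵇ ℝ, LipschitzWith R g' ∧ (∀ y, g' y ≤ g y) ∧
      ∀ x ∈ K, ct g' x = ct g x := by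
  obtain ⟨R0, hR0⟩ := hK.isBounded.exists_norm_le
  have hR0n : 0 ≤ R0 := by
    obtain ⟨x, hx⟩ := hKne
    exact (norm_nonneg x).trans (hR0 x hx)
  refine ⟨⟨R0, hR0n⟩, ?_⟩
  intro g
  have : Nonempty K := hKne.to_subtype
  have : CompactSpace K := isCompact_iff_compactSpace.mp hK
  set G : Y → ℝ := fun y => ⨆ x : K, (⟪(x : E d), (y : E d)⟫ - ct g x) with hG
  have hbdd : ∀ y : Y, BddAbove (Set.range fun x : K => ⟪(x : E d), (y : E d)⟫ - ct g x) := by
    intro y
    refine ⟨g y, ?_⟩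
    rintro _ ⟨x, rfl⟩
    have := le_ct g (x : E d) y
    simp only
    linarith
  have hle : ∀ (y : Y) (x : K), ⟪(x : E d), (y : E d)⟫ - ct g x ≤ G y :=
    fun y x => le_ciSup (hbdd y) x
  have hGle : ∀ y : Y, G y ≤ g y := by
    intro y
    apply ciSup_le
    intro x
    have := le_ct g (x : E d) y
    linarith
  have hlip : LipschitzWith ⟨R0, hR0n⟩ G := by
    apply LipschitzWith.of_le_add_mul
    intro y y'
    apply ciSup_le
    intro x
    have h1 := hle y' x
    have h2 : ⟪(x : E d), (y : E d)⟫ - ⟪(x : E d), (y' : E d)⟫ ≤ R0 * dist y y' := by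
      rw [← inner_sub_right]
      calc ⟪(x : E d), (y : E d) - (y' : E d)⟫ ≤ ‖(x : E d)‖ * ‖(y : E d) - (y' : E d)‖ :=
            real_inner_le_norm _ _
        _ ≤ R0 * ‖(y : E d) - (y' : E d)‖ :=
            mul_le_mul_of_nonneg_right (hR0 x x.2) (norm_nonneg _)
        _ = R0 * dist y y' := by rw [Subtype.dist_eq, dist_eq_norm]
    show ⟪(x : E d), (y : E d)⟫ - ct g x ≤ G y' + R0 * dist y y'
    linarith
  refine ⟨BoundedContinuousFunction.mkOfCompact ⟨G, hlip.continuous⟩, ?_, ?_, ?_⟩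
  · exact hlip
  · intro y
    exact hGle y
  · intro x hx
    apply le_antisymm
    · apply ct_le
      intro y
      have := hle y ⟨x, hx⟩
      show ⟪x, (y : E d)⟫ - G y ≤ ct g x
      simp only at this
      linarith
    · exact ct_anti g _ (fun y => hGle y) x

end Vale.Agent.Lib.P074
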