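import Vale.Agent.Lib.P074B.Defs

open MeasureTheory
open scoped ENNReal NNReal RealInnerProductSpace BoundedContinuousFunction

namespace Vale.Agent.Lib.P074

variable {d : ℕ} {Y : Set (E d)}

/-- TASK B6 (M).  Arzela-Ascoli: `BoundedContinuousFunction.arzela_ascoli₂` with
`s = Metric.closedBall 0 (R * Metric.diam (Set.univ : Set Y))` (compact in `ℝ`;
`|g y| = |g y - g y0| ≤ R * dist y y0 ≤ R * diam`, `Metric.dist_le_diam_of_mem` with
`isCompact_univ.isBounded`).  Closed: `LipschitzWith R g` is the intersection over `y, y'` of the closed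
conditions `dist (g y) (g y') ≤ R * dist y y'` (evaluation `g ↦ g y` is continuous:
`BoundedContinuousFunction.continuous_eval_const`); use `LipschitzWith.of_dist_le_mul`,
`isClosed_iInter`/`isClosed_le`.  Equicontinuous: `LipschitzWith.uniformEquicontinuous` (family of
`R`-Lipschitz maps) then `.equicontinuous`. -/
theorem isCompact_lipClass [CompactSpace Y] (R : ℝ≥0) (y0 : Y) : IsCompact (LipClass R y0) := by
  refine BoundedContinuousFunction.arzela_ascoli₂
    (Metric.closedBall (0 : ℝ) (R * Metric.diam (Set.univ : Set Y)))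
    (isCompact_closedBall _ _) (LipClass R y0) ?_ ?_ ?_
  · have h1 : LipClass R y0 =
        (⋂ y : Y, ⋂ y' : Y, {g : Y →ᵇ ℝ | dist (g y) (g y') ≤ R * dist y y'})
          ∩ {g : Y →ᵇ ℝ | g y0 = 0} := by
      ext g
      simp only [LipClass, Set.mem_ofPred_eq, Set.mem_inter_iff, Set.mem_iInter]
      constructor
      · rintro ⟨h, h0⟩
        exact ⟨fun y y' => h.dist_le_mul y y', h0⟩
      · rintro ⟨h, h0⟩
        exact ⟨LipschitzWith.of_dist_le_mul h, h0⟩
    rw [h1]
    refine IsClosed.inter ?_ ?_
    · refine isClosed_iInter fun y => isClosed_iInter fun y' => ?_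
      refine isClosed_le ?_ continuous_const
      exact (BoundedContinuousFunction.lipschitz_eval_const y).continuous.dist
        (BoundedContinuousFunction.lipschitz_eval_const y').continuous
    · exact isClosed_eq (BoundedContinuousFunction.lipschitz_eval_const y0).continuous
        continuous_const
  · intro g y hg
    rw [mem_closedBall_zero_iff]
    have h := hg.1.dist_le_mul y y0
    rw [hg.2, dist_zero_right] at h
    refine h.trans ?_
    refine mul_le_mul_of_nonneg_left ?_ R.coe_nonneg
    exact Metric.dist_le_diam_of_mem isCompact_univ.isBounded (Set.mem_univ _) (Set.mem_univ _)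
  · refine UniformEquicontinuous.equicontinuous ?_
    exact LipschitzWith.uniformEquicontinuous _ R fun g => g.2.1

theorem zero_mem_lipClass (R : ℝ≥0) (y0 : Y) : (0 : Y →ᵇ ℝ) ∈ LipClass R y0 := by
  refine ⟨?_, by simp⟩
  apply LipschitzWith.of_dist_le_mul
  intro y y'
  simp only [BoundedContinuousFunction.coe_zero, Pi.zero_apply, dist_self]
  positivity

end Vale.Agent.Lib.P074
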