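import Vale.Agent.Lib.P074B.Defs

open MeasureTheory
open scoped ENNReal NNReal RealInnerProductSpace BoundedContinuousFunction

namespace Vale.Agent.Lib.P074

variable {d : ℕ} {Y : Set (E d)}

/-! TASK B1 (M).  Elementary facts on `ct`.  The function `y ↦ ⟪x, y⟫ - g y` is continuous on the
compact nonempty space `Y`: bounded above, and its supremum is attained
(`IsCompact.exists_isMaxOn isCompact_univ`). -/

theorem continuous_ct_aux (g : Y →ᵇ ℝ) (x : E d) :
    Continuous fun y : Y => ⟪x, (y : E d)⟫ - g y :=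
  (continuous_const.inner continuous_subtype_val).sub g.continuous

theorem ct_bddAbove [CompactSpace Y] (g : Y →ᵇ ℝ) (x : E d) :
    BddAbove (Set.range fun y : Y => ⟪x, (y : E d)⟫ - g y) :=
  (isCompact_range (continuous_ct_aux g x)).bddAbove

theorem le_ct [CompactSpace Y] (g : Y →ᵇ ℝ) (x : E d) (y : Y) :
    ⟪x, (y : E d)⟫ - g y ≤ ct g x :=
  le_ciSup (ct_bddAbove g x) y

theorem ct_le [Nonempty Y] (g : Y →ᵇ ℝ) (x : E d) (c : ℝ)
    (h : ∀ y : Y, ⟪x, (y : E d)⟫ - g y ≤ c) : ct g x ≤ c :=
  ciSup_le h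

theorem exists_ct_eq [CompactSpace Y] [Nonempty Y] (g : Y →ᵇ ℝ) (x : E d) :
    ∃ y : Y, ct g x = ⟪x, (y : E d)⟫ - g y := by
  obtain ⟨y, -, hy⟩ := isCompact_univ.exists_isMaxOn (Set.univ_nonempty (α := Y))
    (continuous_ct_aux g x).continuousOn
  refine ⟨y, le_antisymm ?_ (le_ct g x y)⟩
  apply ct_le
  intro z
  exact hy (Set.mem_univ z)

/-- A maximiser is a subgradient. -/
theorem ct_subgrad [CompactSpace Y] (g : Y →ᵇ ℝ) (x : E d) (y : Y)
    (h : ct g x = ⟪x, (y : E d)⟫ - g y) (x' : E d) :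
    ct g x + ⟪(y : E d), x' - x⟫ ≤ ct g x' := by
  have h1 := le_ct g x' y
  rw [h, inner_sub_right, real_inner_comm x' (y : E d), real_inner_comm x (y : E d)]
  linarith

theorem ct_add_const [CompactSpace Y] [Nonempty Y] (g : Y →ᵇ ℝ) (c : ℝ) (x : E d) :
    ct (g + BoundedContinuousFunction.const Y c) x = ct g x - c := by
  apply le_antisymm
  · apply ct_le
    intro y
    have := le_ct g x y
    simp only [BoundedContinuousFunction.coe_add, Pi.add_apply,
      BoundedContinuousFunction.const_apply]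
    linarith
  · have : ct g x ≤ ct (g + BoundedContinuousFunction.const Y c) x + c := by
      apply ct_le
      intro y
      have := le_ct (g + BoundedContinuousFunction.const Y c) x y
      simp only [BoundedContinuousFunction.coe_add, Pi.add_apply,
        BoundedContinuousFunction.const_apply] at this
      linarith
    linarith

/-- `g' ≤ g` implies `ct g ≤ ct g'`. -/
theorem ct_anti [CompactSpace Y] [Nonempty Y] (g g' : Y →ᵇ ℝ) (h : ∀ y, g' y ≤ g y) (x : E d) :
    ct g x ≤ ct g' x := by
  apply ct_le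
  intro y
  have := le_ct g' x y
  have := h y
  linarith

theorem ct_le_add_dist [CompactSpace Y] [Nonempty Y] (g g' : Y →ᵇ ℝ) (x : E d) :
    ct g x ≤ ct g' x + dist g g' := by
  apply ct_le
  intro y
  have h1 := le_ct g' x y
  have h2 := BoundedContinuousFunction.dist_coe_le_dist (f := g) (g := g') y
  rw [Real.dist_eq] at h2
  have h3 := (abs_le.mp h2).1
  linarith

theorem abs_ct_sub_le [CompactSpace Y] [Nonempty Y] (g g' : Y →ᵇ ℝ) (x : E d) :
    |ct g x - ct g' x| ≤ dist g g' := by
  rw [abs_le]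
  have h1 := ct_le_add_dist g g' x
  have h2 := ct_le_add_dist g' g x
  rw [dist_comm] at h2
  constructor <;> linarith

end Vale.Agent.Lib.P074
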