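import Vale.Agent.Lib.P074B.CtBasic

open MeasureTheory
open scoped ENNReal NNReal RealInnerProductSpace BoundedContinuousFunction

namespace Vale.Agent.Lib.P074

variable {d : ℕ} {Y : Set (E d)}

/-! TASK B2 (S/M).  `ct g` is Lipschitz with a constant depending only on `Y`
(`L` = a bound of `‖y‖` on the compact set `Y`; use `exists_ct_eq` at `x`, `le_ct` at `x'` and
Cauchy-Schwarz; `LipschitzWith.of_le_add_mul` or `LipschitzWith.of_dist_le_mul`), hence continuous and
integrable for `unif K` (bounded on the compact `K`: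
`(Continuous.continuousOn).integrableOn_compact hK`, then `Integrable.smul_measure`). -/

theorem exists_lipschitz_ct [CompactSpace Y] [Nonempty Y] :
    ∃ L : ℝ≥0, ∀ g : Y →ᵇ ℝ, LipschitzWith L (ct g) := by
  have hY : IsCompact Y := isCompact_iff_compactSpace.mpr inferInstance
  obtain ⟨L0, hL0⟩ := hY.isBounded.exists_norm_le
  have hL0n : 0 ≤ L0 := by
    obtain ⟨y⟩ := (inferInstance : Nonempty Y)
    exact (norm_nonneg (y : E d)).trans (hL0 y y.2)
  refine ⟨⟨L0, hL0n⟩, ?_⟩
  intro g
  apply LipschitzWith.of_le_add_mul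
  intro x x'
  obtain ⟨y, hy⟩ := exists_ct_eq g x
  have h1 := le_ct g x' y
  have h2 : ⟪x, (y : E d)⟫ - ⟪x', (y : E d)⟫ ≤ L0 * dist x x' := by
    rw [← inner_sub_left]
    calc ⟪x - x', (y : E d)⟫ ≤ ‖x - x'‖ * ‖(y : E d)‖ := real_inner_le_norm _ _
      _ ≤ ‖x - x'‖ * L0 := mul_le_mul_of_nonneg_left (hL0 y y.2) (norm_nonneg _)
      _ = L0 * dist x x' := by rw [dist_eq_norm, mul_comm]
  show ct g x ≤ ct g x' + L0 * dist x x'
  linarith

theorem continuous_ct [CompactSpace Y] [Nonempty Y] (g : Y →ᵇ ℝ) : Continuous (ct g) := by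
  obtain ⟨L, hL⟩ := exists_lipschitz_ct (Y := Y)
  exact (hL g).continuous

theorem integrable_unif_of_continuous {K : Set (E d)} (hK : IsCompact K) {f : E d → ℝ}
    (hf : Continuous f) : Integrable f (unif K) := by
  unfold unif
  by_cases h0 : volume K = 0
  · have : volume.restrict K = 0 := Measure.restrict_eq_zero.mpr h0
    rw [this]
    simp
  · apply Integrable.smul_measure _ (ENNReal.inv_ne_top.mpr h0)
    exact hf.continuousOn.integrableOn_compact hK

theorem integrable_ct [CompactSpace Y] [Nonempty Y] {K : Set (E d)} (hK : IsCompact K)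
    (g : Y →ᵇ ℝ) : Integrable (ct g) (unif K) :=
  integrable_unif_of_continuous hK (continuous_ct g)

end Vale.Agent.Lib.P074
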