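import Vale.Agent.Lib.P074S.Unif

/-!
# P074, wave 2: existence of Brenier maps (Gangbo's variational proof).  Definitions.

`Y` is a compact nonempty subset of `E d`, used as a subtype; `g : Y →ᵇ ℝ`.
-/

open MeasureTheory
open scoped ENNReal NNReal RealInnerProductSpace BoundedContinuousFunction

namespace Vale.Agent.Lib.P074

variable {d : ℕ} {Y : Set (E d)}

/-- The conjugate of `g` (a function on `Y`): `ct g x = sup_{y ∈ Y} (⟪x, y⟫ - g y)`. -/
noncomputable def ct (g : Y →ᵇ ℝ) (x : E d) : ℝ := ⨆ y : Y, (⟪x, (y : E d)⟫ - g y)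

/-- The measure `μ` seen on the subtype `Y`. -/
noncomputable def muY (Y : Set (E d)) (μ : Measure (E d)) : Measure Y := μ.comap Subtype.val

/-- The dual functional. -/
noncomputable def JJ (K : Set (E d)) (μ : Measure (E d)) (g : Y →ᵇ ℝ) : ℝ :=
  ∫ x, ct g x ∂(unif K) + ∫ y, g y ∂(muY Y μ)

/-- The class of normalised `R`-Lipschitz functions on `Y`. -/
def LipClass (R : ℝ≥0) (y0 : Y) : Set (Y →ᵇ ℝ) := {g | LipschitzWith R g ∧ g y0 = 0}

end Vale.Agent.Lib.P074
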