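import Vale.Agent.Lib.P074B.CtLip

open MeasureTheory Filter Topology
open scoped ENNReal NNReal RealInnerProductSpace BoundedContinuousFunction

namespace Vale.Agent.Lib.P074

variable {d : ℕ} {Y : Set (E d)}

/-! TASK B9 (M).  Gradients. -/

/-- At a point of differentiability every global subgradient represents the derivative. -/
theorem subgrad_eq_of_hasFDerivAt {F : Type*} [NormedAddCommGroup F] [InnerProductSpace ℝ F]
    {φ : F → ℝ} {L : F →L[ℝ] ℝ} {x y : F} (hL : HasFDerivAt φ L x)
    (hy : ∀ x', φ x + ⟪y, x' - x⟫ ≤ φ x') : ∀ v, L v = ⟪y, v⟫ := by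
  have hg : HasFDerivAt (fun x' => φ x' - ⟪y, x' - x⟫) (L - innerSL ℝ y) x := by
    have h1 : HasFDerivAt (fun x' : F => ⟪y, x' - x⟫) (innerSL ℝ y) x := by
      have h2 : HasFDerivAt (fun x' : F => x' - x) (ContinuousLinearMap.id ℝ F) x :=
        (hasFDerivAt_id x).sub_const x
      have h3 : HasFDerivAt (fun x' : F => (innerSL ℝ y) (x' - x))
          ((innerSL ℝ y).comp (ContinuousLinearMap.id ℝ F)) x :=
        (innerSL ℝ y).hasFDerivAt.comp x h2
      simpa only [innerSL_apply_apply, ContinuousLinearMap.comp_id] using h3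
    exact hL.sub h1
  have hmin : IsLocalMin (fun x' => φ x' - ⟪y, x' - x⟫) x := by
    refine Filter.Eventually.of_forall fun x' => ?_
    have := hy x'
    simp only [sub_self, inner_zero_right, sub_zero]
    linarith
  have h0 : L - innerSL ℝ y = 0 := hmin.hasFDerivAt_eq_zero hg
  intro v
  have := congrArg (fun M : F →L[ℝ] ℝ => M v) h0
  simp only [sub_apply, innerSL_apply_apply, zero_apply] at this
  linarith

/-- A subgradient at a point of differentiability is the gradient: `x' ↦ φ x' - ⟪y, x' - x⟫` has a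
(local) minimum at `x` (`IsLocalMin.fderiv_eq_zero`), so `fderiv ℝ φ x = innerSL ℝ y`;
`gradient φ x = (InnerProductSpace.toDual ℝ (E d)).symm (fderiv ℝ φ x)` by definition. -/
theorem gradient_eq_of_subgrad {φ : E d → ℝ} {x y : E d} (hd : DifferentiableAt ℝ φ x)
    (hs : ∀ x', φ x + ⟪y, x' - x⟫ ≤ φ x') : gradient φ x = y := by
  refine ext_inner_right ℝ fun v => ?_
  rw [← subgrad_eq_of_hasFDerivAt hd.hasFDerivAt hs v]
  simp [gradient]

/-- `measurable_fderiv ℝ φ` composed with the continuous map `(toDual ℝ (E d)).symm`. -/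
theorem measurable_gradient (φ : E d → ℝ) : Measurable (gradient φ) := by
  have h1 : Measurable (fun x => fderiv ℝ φ x) := measurable_fderiv ℝ φ
  exact (InnerProductSpace.toDual ℝ (E d)).symm.continuous.measurable.comp h1

/-- Rademacher (`LipschitzWith.ae_differentiableAt_of_real`) and `unif K ≪ volume`
(`unif K = c • volume.restrict K`: `Measure.ae_smul_measure`, `ae_restrict_of_ae`). -/
theorem ae_differentiableAt_ct [CompactSpace Y] [Nonempty Y] (K : Set (E d)) (g : Y →ᵇ ℝ) :
    ∀ᵐ x ∂(unif K), DifferentiableAt ℝ (ct g) x := by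
  obtain ⟨L, hL⟩ := exists_lipschitz_ct (Y := Y)
  have h1 : ∀ᵐ x ∂(volume : Measure (E d)), DifferentiableAt ℝ (ct g) x :=
    (hL g).ae_differentiableAt_of_real
  exact Measure.ae_smul_measure (ae_restrict_of_ae h1) _

/-- At a point of differentiability of `ct g` the maximiser is unique and equals the gradient
(`ct_subgrad` + `gradient_eq_of_subgrad`, `Subtype.ext`). -/
theorem ct_max_eq_gradient [CompactSpace Y] [Nonempty Y] (g : Y →ᵇ ℝ) {x : E d}
    (hd : DifferentiableAt ℝ (ct g) x) (y : Y) (h : ct g x = ⟪x, (y : E d)⟫ - g y) :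
    (y : E d) = gradient (ct g) x := by
  exact (gradient_eq_of_subgrad hd (ct_subgrad g x y h)).symm

end Vale.Agent.Lib.P074
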