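import Vale.Agent.Lib.P074B.CtBasic

open MeasureTheory Filter Topology
open scoped ENNReal NNReal RealInnerProductSpace BoundedContinuousFunction

namespace Vale.Agent.Lib.P074

variable {d : ℕ} {Y : Set (E d)}

/-- TASK B8a (M).  Near-maximisers converge to the unique maximiser (general topology).
For an open neighbourhood `U` of `a`, the compact set `Uᶜ` is empty or `F` attains on it a maximum
`< F a`; so eventually `u n ∈ U`. -/
theorem tendsto_of_unique_max {X : Type*} [TopologicalSpace X] [CompactSpace X] {F : X → ℝ}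
    (hF : Continuous F) {a : X} (hmax : ∀ y, F y ≤ F a) (huniq : ∀ y, F y = F a → y = a)
    {u : ℕ → X} (hu : Tendsto (fun n => F (u n)) atTop (𝓝 (F a))) : Tendsto u atTop (𝓝 a) := by
  rw [tendsto_nhds]
  intro s hs has
  by_cases hne : (sᶜ : Set X).Nonempty
  · obtain ⟨y1, hy1, hm⟩ := hs.isClosed_compl.isCompact.exists_isMaxOn hne hF.continuousOn
    have hlt : F y1 < F a := by
      refine lt_of_le_of_ne (hmax y1) fun h => ?_
      exact hy1 (huniq y1 h ▸ has)
    have h1 : ∀ᶠ n in atTop, F y1 < F (u n) := hu.eventually (lt_mem_nhds hlt)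
    filter_upwards [h1] with n hn
    by_contra hns
    exact absurd (hm hns) (not_le.2 hn)
  · refine Filter.Eventually.of_forall fun n => ?_
    by_contra hns
    exact hne ⟨u n, hns⟩

/-- TASK B8b (M/L).  One-sided derivative of `ε ↦ ct (ψ + ε h) x` at `0` along `ε = 1/(n+1)`, at a
point `x` where the maximiser `a` is unique.  With `F y = ⟪x, y⟫ - ψ y`, `ε = 1/(n+1)` and `u n` a
maximiser for `ψ + ε • h` (`exists_ct_eq`):
* lower bound `ct (ψ + ε h) x ≥ F a - ε h a` (`le_ct`), so the quotient is `≥ - h a`;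
* `ct (ψ + ε h) x = F (u n) - ε h (u n) ≤ F a - ε h (u n)`, so the quotient is `≤ - h (u n)`;
* `F a - 2 ε ‖h‖ ≤ F (u n) ≤ F a`, so `F (u n) → F a`, `u n → a` (B8a), `h (u n) → h a`;
* squeeze. -/
theorem tendsto_quot [CompactSpace Y] [Nonempty Y] (ψ h : Y →ᵇ ℝ) (x : E d) (a : Y)
    (hmax : ct ψ x = ⟪x, (a : E d)⟫ - ψ a)
    (huniq : ∀ y : Y, ct ψ x = ⟪x, (y : E d)⟫ - ψ y → y = a) :
    Tendsto (fun n : ℕ => ((n : ℝ) + 1) * (ct (ψ + (1 / ((n : ℝ) + 1)) • h) x - ct ψ x)) atTop
      (𝓝 (- h a)) := by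
  set F : Y → ℝ := fun y => ⟪x, (y : E d)⟫ - ψ y with hFdef
  have hFc : Continuous F :=
    (continuous_const.inner continuous_subtype_val).sub ψ.continuous
  have hFa : ∀ y, F y ≤ F a := fun y => by
    have := le_ct ψ x y
    rw [hmax] at this
    exact this
  have hFu : ∀ y, F y = F a → y = a := fun y hy => huniq y (by rw [hmax]; exact hy.symm)
  choose u hu using fun n : ℕ => exists_ct_eq (ψ + (1 / ((n : ℝ) + 1)) • h) x
  have hu' : ∀ n : ℕ, ct (ψ + (1 / ((n : ℝ) + 1)) • h) x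
      = F (u n) - (1 / ((n : ℝ) + 1)) * h (u n) := fun n => by
    rw [hu n]
    simp only [hFdef, BoundedContinuousFunction.coe_add, BoundedContinuousFunction.coe_smul,
      Pi.add_apply, smul_eq_mul]
    ring
  have hlow : ∀ n : ℕ, F a - (1 / ((n : ℝ) + 1)) * h a ≤ ct (ψ + (1 / ((n : ℝ) + 1)) • h) x :=
    fun n => by
    have := le_ct (ψ + (1 / ((n : ℝ) + 1)) • h) x a
    simp only [BoundedContinuousFunction.coe_add, BoundedContinuousFunction.coe_smul,
      Pi.add_apply, smul_eq_mul] at this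
    simp only [hFdef]
    linarith
  have hpos : ∀ n : ℕ, (0 : ℝ) < (n : ℝ) + 1 := fun n => by positivity
  have heps : Tendsto (fun n : ℕ => 1 / ((n : ℝ) + 1)) atTop (𝓝 0) :=
    tendsto_one_div_add_atTop_nhds_zero_nat
  -- `F (u n) → F a`
  have hFun : Tendsto (fun n => F (u n)) atTop (𝓝 (F a)) := by
    have hb : ∀ n : ℕ, F a - (1 / ((n : ℝ) + 1)) * (2 * ‖h‖) ≤ F (u n) := fun n => by
      have h1 := hlow n
      rw [hu' n] at h1
      have h2 : |h a| ≤ ‖h‖ := h.norm_coe_le_norm a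
      have h3 : |h (u n)| ≤ ‖h‖ := h.norm_coe_le_norm (u n)
      have h4 : (0 : ℝ) < 1 / ((n : ℝ) + 1) := by have := hpos n; positivity
      have h5 : (1 / ((n : ℝ) + 1)) * h a - (1 / ((n : ℝ) + 1)) * h (u n)
          ≤ (1 / ((n : ℝ) + 1)) * (2 * ‖h‖) := by
        rw [← mul_sub]
        refine mul_le_mul_of_nonneg_left ?_ h4.le
        have := abs_le.1 h2
        have := abs_le.1 h3
        linarith
      linarith
    have hl : Tendsto (fun n : ℕ => F a - (1 / ((n : ℝ) + 1)) * (2 * ‖h‖)) atTop (𝓝 (F a)) := by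
      have := (heps.mul_const (2 * ‖h‖)).const_sub (F a)
      simpa using this
    exact tendsto_of_tendsto_of_tendsto_of_le_of_le hl tendsto_const_nhds hb (fun n => hFa (u n))
  have hun : Tendsto u atTop (𝓝 a) := tendsto_of_unique_max hFc hFa hFu hFun
  have hhun : Tendsto (fun n => - h (u n)) atTop (𝓝 (- h a)) :=
    ((h.continuous.tendsto a).comp hun).neg
  refine tendsto_of_tendsto_of_tendsto_of_le_of_le tendsto_const_nhds hhun ?_ ?_
  · intro n
    have h1 := hlow n
    have h2 : ct ψ x = F a := hmax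
    have h3 := hpos n
    have h4 : ((n : ℝ) + 1) * (-(1 / ((n : ℝ) + 1)) * h a) = - h a := by
      field_simp
    show - h a ≤ ((n : ℝ) + 1) * (ct (ψ + (1 / ((n : ℝ) + 1)) • h) x - ct ψ x)
    rw [← h4]
    refine mul_le_mul_of_nonneg_left ?_ h3.le
    rw [h2]
    linarith
  · intro n
    have h2 : ct ψ x = F a := hmax
    have h3 := hpos n
    have h4 : ((n : ℝ) + 1) * (-(1 / ((n : ℝ) + 1)) * h (u n)) = - h (u n) := by
      field_simp
    show ((n : ℝ) + 1) * (ct (ψ + (1 / ((n : ℝ) + 1)) • h) x - ct ψ x) ≤ - h (u n)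
    rw [← h4]
    refine mul_le_mul_of_nonneg_left ?_ h3.le
    rw [h2, hu' n]
    have := hFa (u n)
    linarith

end Vale.Agent.Lib.P074
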