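import Vale.Agent.Lib.P074B.JBasic
import Vale.Agent.Lib.P074B.Quot
import Vale.Agent.Lib.P074B.Grad

open MeasureTheory Filter Topology
open scoped ENNReal NNReal RealInnerProductSpace BoundedContinuousFunction

namespace Vale.Agent.Lib.P074

variable {d : ℕ} {Y : Set (E d)}

/-- TASK B10 (L).  First variation.  Let `h = f ∘ Subtype.val : Y →ᵇ ℝ`
(`f.compContinuous ⟨Subtype.val, continuous_subtype_val⟩`), `ε n = 1/(n+1)`,
`q n x = (n+1) * (ct (ψ + ε n • h) x - ct ψ x)`.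
* `|q n x| ≤ ‖h‖` by `abs_ct_sub_le` (`dist (ψ + ε • h) ψ = ε * ‖h‖`), `q n` continuous (`continuous_ct`).
* for a.e. `x` (`ae_differentiableAt_ct`): take a maximiser `a` (`exists_ct_eq`); it is unique and
  `(a : E d) = gradient (ct ψ) x` (`ct_max_eq_gradient`), so `q n x → - h a = - f (gradient (ct ψ) x)`
  (`tendsto_quot`).
* dominated convergence (`tendsto_integral_of_dominated_convergence`, bound `‖h‖`, probability measure):
  `∫ q n d(unif K) → - ∫ f (gradient (ct ψ) x) d(unif K)`.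
* minimality: `0 ≤ (n+1) * (JJ (ψ + ε n • h) - JJ ψ) = ∫ q n d(unif K) + ∫ h d(muY)`, and
  `∫ h d(muY) = ∫ f dμ` (`integral_muY`).  Pass to the limit (`ge_of_tendsto'`). -/
theorem integral_comp_gradient_le [CompactSpace Y] [Nonempty Y] (hY : MeasurableSet Y)
    {K : Set (E d)} (hK : IsCompact K)
    (hint : (interior K).Nonempty) (μ : Measure (E d)) [IsProbabilityMeasure μ] (hμ : μ Yᶜ = 0)
    (ψ : Y →ᵇ ℝ) (hψ : ∀ g : Y →ᵇ ℝ, JJ K μ ψ ≤ JJ K μ g) (f : E d →ᵇ ℝ) :
    ∫ x, f (gradient (ct ψ) x) ∂(unif K) ≤ ∫ y, f y ∂μ := by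
  have i1 : IsProbabilityMeasure (muY Y μ) := isProbabilityMeasure_muY hY μ hμ
  have i2 : IsProbabilityMeasure (unif K) := isProbabilityMeasure_unif hK hint
  set h : Y →ᵇ ℝ := f.compContinuous ⟨Subtype.val, continuous_subtype_val⟩ with hh
  have hval : ∀ y : Y, h y = f (y : E d) := fun y => rfl
  set q : ℕ → E d → ℝ :=
    fun n x => ((n : ℝ) + 1) * (ct (ψ + (1 / ((n : ℝ) + 1)) • h) x - ct ψ x) with hq
  have hpos : ∀ n : ℕ, (0 : ℝ) < (n : ℝ) + 1 := fun n => by positivity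
  -- Step A
  have hA : ∀ n : ℕ, 0 ≤ ∫ x, q n x ∂(unif K) + ∫ y, f y ∂μ := by
    intro n
    have h1 := hψ (ψ + (1 / ((n : ℝ) + 1)) • h)
    unfold JJ at h1
    have e1 : ∫ y, (ψ + (1 / ((n : ℝ) + 1)) • h) y ∂(muY Y μ)
        = ∫ y, ψ y ∂(muY Y μ) + (1 / ((n : ℝ) + 1)) * ∫ y, h y ∂(muY Y μ) := by
      simp only [BoundedContinuousFunction.coe_add, BoundedContinuousFunction.coe_smul, Pi.add_apply,
        smul_eq_mul]
      rw [integral_add (ψ.integrable _) ((h.integrable _).const_mul _), integral_const_mul]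
    have e2 : ∫ y, h y ∂(muY Y μ) = ∫ y, f y ∂μ := integral_muY hY μ hμ f
    have e3 : ∫ x, q n x ∂(unif K) = ((n : ℝ) + 1) *
        (∫ x, ct (ψ + (1 / ((n : ℝ) + 1)) • h) x ∂(unif K) - ∫ x, ct ψ x ∂(unif K)) := by
      simp only [hq]
      rw [integral_const_mul, integral_sub (integrable_ct hK _) (integrable_ct hK _)]
    rw [e1, e2] at h1
    rw [e3]
    have h2 : 0 ≤ (∫ x, ct (ψ + (1 / ((n : ℝ) + 1)) • h) x ∂(unif K) - ∫ x, ct ψ x ∂(unif K))
        + (1 / ((n : ℝ) + 1)) * ∫ y, f y ∂μ := by linarith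
    have h3 := mul_nonneg (hpos n).le h2
    have h4 : ((n : ℝ) + 1) * ((1 / ((n : ℝ) + 1)) * ∫ y, f y ∂μ) = ∫ y, f y ∂μ := by
      field_simp
    rw [mul_add, h4] at h3
    exact h3
  -- Step B
  have hB : Tendsto (fun n => ∫ x, q n x ∂(unif K)) atTop
      (𝓝 (∫ x, - f (gradient (ct ψ) x) ∂(unif K))) := by
    apply tendsto_integral_of_dominated_convergence (fun _ => ‖h‖)
    · intro n
      exact (continuous_const.mul ((continuous_ct _).sub (continuous_ct _))).aestronglyMeasurable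
    · exact integrable_const _
    · intro n
      refine Filter.Eventually.of_forall (fun x => ?_)
      simp only [hq]
      rw [Real.norm_eq_abs, abs_mul, abs_of_pos (hpos n)]
      have h1 := abs_ct_sub_le (ψ + (1 / ((n : ℝ) + 1)) • h) ψ x
      have h2 : dist (ψ + (1 / ((n : ℝ) + 1)) • h) ψ = (1 / ((n : ℝ) + 1)) * ‖h‖ := by
        rw [dist_eq_norm, add_sub_cancel_left, norm_smul, Real.norm_eq_abs,
          abs_of_pos (by have := hpos n; positivity)]
      rw [h2] at h1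
      calc ((n : ℝ) + 1) * |ct (ψ + (1 / ((n : ℝ) + 1)) • h) x - ct ψ x|
          ≤ ((n : ℝ) + 1) * ((1 / ((n : ℝ) + 1)) * ‖h‖) :=
            mul_le_mul_of_nonneg_left h1 (hpos n).le
        _ = ‖h‖ := by have := (hpos n).ne'; field_simp
    · filter_upwards [ae_differentiableAt_ct K ψ] with x hx
      obtain ⟨a, ha⟩ := exists_ct_eq ψ x
      have hga : (a : E d) = gradient (ct ψ) x := ct_max_eq_gradient ψ hx a ha
      have huniq : ∀ y : Y, ct ψ x = ⟪x, (y : E d)⟫ - ψ y → y = a := by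
        intro y hy
        apply Subtype.ext
        rw [ct_max_eq_gradient ψ hx y hy, hga]
      have := tendsto_quot ψ h x a ha huniq
      rw [hval a, hga] at this
      exact this
  -- Step C
  have hC : Tendsto (fun n => ∫ x, q n x ∂(unif K) + ∫ y, f y ∂μ) atTop
      (𝓝 (∫ x, - f (gradient (ct ψ) x) ∂(unif K) + ∫ y, f y ∂μ)) := hB.add_const _
  have hD : 0 ≤ ∫ x, - f (gradient (ct ψ) x) ∂(unif K) + ∫ y, f y ∂μ :=
    ge_of_tendsto' hC hA
  rw [integral_neg] at hD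
  linarith

end Vale.Agent.Lib.P074
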