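import Vale.Agent.Lib.P074B.Minimiser
import Vale.Agent.Lib.P074B.Variation

open MeasureTheory Filter Topology
open scoped ENNReal NNReal RealInnerProductSpace BoundedContinuousFunction

namespace Vale.Agent.Lib.P074

variable {d : ℕ}

/-- Existence of Brenier maps (Brenier's theorem for a uniform source and a compactly supported
target), by Gangbo's variational argument. -/
theorem exists_brenierMap {K : Set (E d)} (hK : IsCompact K) (hint : (interior K).Nonempty)
    {Y : Set (E d)} (hY : IsCompact Y) (hYne : Y.Nonempty) (μ : Measure (E d))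
    [IsProbabilityMeasure μ] (hμ : μ Yᶜ = 0) : ∃ T, IsBrenierMap K μ T := by
  haveI : CompactSpace Y := isCompact_iff_compactSpace.mp hY
  haveI : Nonempty Y := hYne.to_subtype
  haveI : IsProbabilityMeasure (muY Y μ) := isProbabilityMeasure_muY hY.measurableSet μ hμ
  haveI : IsProbabilityMeasure (unif K) := isProbabilityMeasure_unif hK hint
  obtain ⟨ψ, hψ⟩ := exists_minimiser (Y := Y) hK hint μ
  have hm : Measurable (gradient (ct ψ)) := measurable_gradient _
  refine ⟨gradient (ct ψ), hm, ?_, ct ψ, ?_⟩
  · haveI : IsProbabilityMeasure ((unif K).map (gradient (ct ψ))) :=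
      Measure.isProbabilityMeasure_map hm.aemeasurable
    apply ext_of_forall_integral_eq_of_IsFiniteMeasure
    intro f
    rw [integral_map hm.aemeasurable f.continuous.aestronglyMeasurable]
    apply le_antisymm
    · exact integral_comp_gradient_le hY.measurableSet hK hint μ hμ ψ hψ f
    · have := integral_comp_gradient_le hY.measurableSet hK hint μ hμ ψ hψ (-f)
      simp only [BoundedContinuousFunction.coe_neg, Pi.neg_apply, integral_neg] at this
      linarith
  · filter_upwards [ae_differentiableAt_ct K ψ] with x hx x' _
    obtain ⟨a, ha⟩ := exists_ct_eq ψ x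
    rw [← ct_max_eq_gradient ψ hx a ha]
    exact ct_subgrad ψ x a ha x'

end Vale.Agent.Lib.P074
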