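import Vale.Agent.Lib.P074B.Defs

open MeasureTheory
open scoped ENNReal NNReal RealInnerProductSpace BoundedContinuousFunction

namespace Vale.Agent.Lib.P074

variable {d : ℕ} {Y : Set (E d)}

/-! TASK B4 (S/M).  The measure `muY Y μ = μ.comap Subtype.val`.
`(MeasurableEmbedding.subtype_coe hY).comap_apply`, `Subtype.range_coe`/`Set.image_univ`,
`prob_compl_eq_zero_iff` or `measure_compl`; `integral_subtype_comap hY f`;
`setIntegral_eq_integral_of_ae_compl_eq_zero` or `Measure.restrict_eq_self_of_ae_mem`. -/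

theorem isProbabilityMeasure_muY (hY : MeasurableSet Y) (μ : Measure (E d))
    [IsProbabilityMeasure μ] (hμ : μ Yᶜ = 0) : IsProbabilityMeasure (muY Y μ) := by
  constructor
  unfold muY
  rw [(MeasurableEmbedding.subtype_coe hY).comap_apply, Set.image_univ, Subtype.range_coe]
  exact (prob_compl_eq_zero_iff hY).mp hμ

theorem integral_muY (hY : MeasurableSet Y) (μ : Measure (E d)) (hμ : μ Yᶜ = 0) (f : E d → ℝ) :
    ∫ y : Y, f (y : E d) ∂(muY Y μ) = ∫ y, f y ∂μ := by
  unfold muY
  rw [integral_subtype_comap hY f]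
  have : ∀ᵐ y ∂μ, y ∈ Y := by
    rw [ae_iff]
    exact hμ
  rw [Measure.restrict_eq_self_of_ae_mem this]

end Vale.Agent.Lib.P074
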