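import Vale.Agent.Lib.P074B.CtLip
import Vale.Agent.Lib.P074B.MuY

open MeasureTheory
open scoped ENNReal NNReal RealInnerProductSpace BoundedContinuousFunction

namespace Vale.Agent.Lib.P074

variable {d : ℕ} {Y : Set (E d)}

/-! TASK B5 (M).  Elementary facts on `JJ`.  Both measures are probability measures
(`isProbabilityMeasure_unif hK hint`, hypothesis for `muY`); `ct g` is integrable (`integrable_ct`),
`g` is integrable (`BoundedContinuousFunction.integrable`). -/

theorem JJ_add_const [CompactSpace Y] [Nonempty Y] {K : Set (E d)} (hK : IsCompact K)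
    (hint : (interior K).Nonempty) (μ : Measure (E d)) [IsProbabilityMeasure (muY Y μ)]
    (g : Y →ᵇ ℝ) (c : ℝ) :
    JJ K μ (g + BoundedContinuousFunction.const Y c) = JJ K μ g := by
  have hP : IsProbabilityMeasure (unif K) := isProbabilityMeasure_unif hK hint
  unfold JJ
  have h1 : ∫ x, ct (g + BoundedContinuousFunction.const Y c) x ∂(unif K)
      = ∫ x, ct g x ∂(unif K) - c := by
    have : (fun x => ct (g + BoundedContinuousFunction.const Y c) x) = fun x => ct g x - c := by
      funext x; exact ct_add_const g c x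
    rw [this, integral_sub (integrable_ct hK g) (integrable_const c)]
    simp
  have h2 : ∫ y, (g + BoundedContinuousFunction.const Y c) y ∂(muY Y μ)
      = ∫ y, g y ∂(muY Y μ) + c := by
    have : (fun y => (g + BoundedContinuousFunction.const Y c) y) = fun y => g y + c := by
      funext y; simp
    rw [this, integral_add (g.integrable (muY Y μ)) (integrable_const c)]
    simp
  rw [h1, h2]
  ring

/-- use `ae_mem_unif hK` and `integral_congr_ae` for the first integral, `integral_mono` for the
second. -/
theorem JJ_le_of_cc [CompactSpace Y] [Nonempty Y] {K : Set (E d)} (hK : IsCompact K)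
    (μ : Measure (E d)) [IsProbabilityMeasure (muY Y μ)]
    (g g' : Y →ᵇ ℝ) (hle : ∀ y, g' y ≤ g y) (hct : ∀ x ∈ K, ct g' x = ct g x) :
    JJ K μ g' ≤ JJ K μ g := by
  unfold JJ
  have h1 : ∫ x, ct g' x ∂(unif K) = ∫ x, ct g x ∂(unif K) :=
    integral_congr_ae ((ae_mem_unif hK).mono fun x hx => hct x hx)
  have h2 : ∫ y, g' y ∂(muY Y μ) ≤ ∫ y, g y ∂(muY Y μ) :=
    integral_mono (g'.integrable (muY Y μ)) (g.integrable (muY Y μ)) hle
  rw [h1]
  linarith

/-- from `abs_ct_sub_le` and `|g y - g' y| ≤ dist g g'` (`BoundedContinuousFunction.dist_coe_le_dist`),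
integrating over probability measures. -/
theorem abs_JJ_sub_le [CompactSpace Y] [Nonempty Y] {K : Set (E d)} (hK : IsCompact K)
    (hint : (interior K).Nonempty) (μ : Measure (E d)) [IsProbabilityMeasure (muY Y μ)]
    (g g' : Y →ᵇ ℝ) : |JJ K μ g - JJ K μ g'| ≤ 2 * dist g g' := by
  have hP : IsProbabilityMeasure (unif K) := isProbabilityMeasure_unif hK hint
  unfold JJ
  have h1 : |∫ x, ct g x ∂(unif K) - ∫ x, ct g' x ∂(unif K)| ≤ dist g g' := by
    rw [← integral_sub (integrable_ct hK g) (integrable_ct hK g'), ← Real.norm_eq_abs]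
    have := norm_integral_le_of_norm_le_const (μ := unif K) (f := fun x => ct g x - ct g' x)
      (C := dist g g') (Filter.Eventually.of_forall fun x => by
        rw [Real.norm_eq_abs]; exact abs_ct_sub_le g g' x)
    simpa using this
  have h2 : |∫ y, g y ∂(muY Y μ) - ∫ y, g' y ∂(muY Y μ)| ≤ dist g g' := by
    rw [← integral_sub (g.integrable (muY Y μ)) (g'.integrable (muY Y μ)), ← Real.norm_eq_abs]
    have := norm_integral_le_of_norm_le_const (μ := muY Y μ) (f := fun y => g y - g' y)
      (C := dist g g') (Filter.Eventually.of_forall fun y => by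
        rw [← dist_eq_norm]
        exact BoundedContinuousFunction.dist_coe_le_dist (f := g) (g := g') y)
    simpa using this
  have h3 : (∫ x, ct g x ∂(unif K) + ∫ y, g y ∂(muY Y μ))
      - (∫ x, ct g' x ∂(unif K) + ∫ y, g' y ∂(muY Y μ))
      = (∫ x, ct g x ∂(unif K) - ∫ x, ct g' x ∂(unif K))
        + (∫ y, g y ∂(muY Y μ) - ∫ y, g' y ∂(muY Y μ)) := by ring
  rw [h3]
  exact (abs_add_le _ _).trans (by linarith)

theorem continuous_JJ [CompactSpace Y] [Nonempty Y] {K : Set (E d)} (hK : IsCompact K)
    (hint : (interior K).Nonempty) (μ : Measure (E d)) [IsProbabilityMeasure (muY Y μ)] :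
    Continuous (JJ K μ : (Y →ᵇ ℝ) → ℝ) := by
  have h : LipschitzWith 2 (JJ K μ : (Y →ᵇ ℝ) → ℝ) := by
    apply LipschitzWith.of_dist_le_mul
    intro g g'
    rw [Real.dist_eq]
    simpa using abs_JJ_sub_le hK hint μ g g'
  exact h.continuous

end Vale.Agent.Lib.P074
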