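import Vale.Agent.Lib.P074B.Cc
import Vale.Agent.Lib.P074B.JBasic
import Vale.Agent.Lib.P074B.Compact

open MeasureTheory
open scoped ENNReal NNReal RealInnerProductSpace BoundedContinuousFunction

namespace Vale.Agent.Lib.P074

variable {d : ℕ} {Y : Set (E d)}

/-- TASK B7 (M).  Global minimiser of `JJ`.  Take `R` from `exists_cc`, any `y0 : Y`, and a
minimiser `ψ` of `JJ K μ` on the compact nonempty set `LipClass R y0`
(`IsCompact.exists_isMinOn`, `continuous_JJ`, `zero_mem_lipClass`).  For arbitrary `g` take `g'` from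
`exists_cc` and `g'' = g' + const (-(g' y0))`, which is in `LipClass R y0`
(adding a constant keeps `LipschitzWith R`: `LipschitzWith.of_dist_le_mul`, the constants cancel).  Then
`JJ ψ ≤ JJ g'' = JJ g' ≤ JJ g` by `JJ_add_const`, `JJ_le_of_cc`. -/
theorem exists_minimiser [CompactSpace Y] [Nonempty Y] {K : Set (E d)} (hK : IsCompact K)
    (hint : (interior K).Nonempty) (μ : Measure (E d)) [IsProbabilityMeasure (muY Y μ)] :
    ∃ ψ : Y →ᵇ ℝ, ∀ g : Y →ᵇ ℝ, JJ K μ ψ ≤ JJ K μ g := by
  have hKne : K.Nonempty := hint.mono interior_subset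
  obtain ⟨R, hR⟩ := exists_cc (Y := Y) hK hKne
  obtain ⟨y0⟩ := (inferInstance : Nonempty Y)
  obtain ⟨ψ, _, hψ⟩ := (isCompact_lipClass R y0).exists_isMinOn ⟨0, zero_mem_lipClass R y0⟩
    (continuous_JJ hK hint μ).continuousOn
  refine ⟨ψ, fun g => ?_⟩
  obtain ⟨g', hL, hle, hct⟩ := hR g
  have hmem : g' + BoundedContinuousFunction.const Y (-(g' y0)) ∈ LipClass R y0 := by
    refine ⟨?_, by simp⟩
    apply LipschitzWith.of_dist_le_mul
    intro y y'
    have := hL.dist_le_mul y y'
    simpa using this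
  calc JJ K μ ψ ≤ JJ K μ (g' + BoundedContinuousFunction.const Y (-(g' y0))) := hψ hmem
    _ = JJ K μ g' := JJ_add_const hK hint μ g' _
    _ ≤ JJ K μ g := JJ_le_of_cc hK μ g g' hle hct

end Vale.Agent.Lib.P074
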